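import Vale.Agent.P166U.Fin1

/-! # P166: the asymptotics of the mean pressure depends only on `β` and `μ` -/

namespace Vale.Agent.Results.P166.DependsOnlyOnMu

open MeasureTheory Filter Topology P166U

/-- Let `x N`, `y N` be two arrays of eigenvalues satisfying the standing assumptions with the same
compactly supported probability measure `μ` (weak convergence of the empirical measures, convergence
of the extreme eigenvalues to the end points of the support), and let `ν N` be the Haar law of the
random orthogonal matrix. Then the mean pressures of the two models differ by `o(1)`; in particular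
if one of them converges the other one converges to the same limit. -/
theorem result (β : ℝ) (hβ : 0 ≤ β) (μ : Measure ℝ) [IsProbabilityMeasure μ]
    (hμ : IsCompact μ.support) (x y : (N : ℕ) → Fin N → ℝ) (hx : Spectra μ x)
    (hy : Spectra μ y) (ν : (N : ℕ) → Measure (Fin N → Fin N → ℝ)) (hν : ∀ N, IsHaar (ν N)) :
    Tendsto (fun N => meanPress β (x N) (ν N) - meanPress β (y N) (ν N)) atTop (𝓝 0) ∧
    ∀ p : ℝ, Tendsto (fun N => meanPress β (x N) (ν N)) atTop (𝓝 p) →
      Tendsto (fun N => meanPress β (y N) (ν N)) atTop (𝓝 p) := by
  have h := universalityA β hβ μ hμ x y hx hy ν hν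
  refine ⟨h, fun p hp => ?_⟩
  have h2 := hp.sub h
  simpa using h2

end Vale.Agent.Results.P166.DependsOnlyOnMu
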